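import Mathlib

/-!
P315 (GAP-PATH, note 14235): the row-wise mirror descent regret lemma, in the Frank-Wolfe-gap form
of note helper392 (referee).  `M` rows, edge type `E`, `D k i e` = visible cost of edge `e` in row
`i` at round `k`; `x k` = row marginals of the flow chosen in round `k`; `y k` = state.

Only two facts are used about the comparison path `P`:
* (gap) `-avg log x_k(P) ≤ -avg log y_k(P) + l (V_k(P) - V_k(x_k)) + err`;
* (upd) `y_{k+1,i}(P_i) ≥ x_{k,i}(P_i) (1 + l w~_i(P_i)) / (1 + l E_{x_i} w~_i)`.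
-/

set_option autoImplicit false

open Finset
open scoped BigOperators

namespace Vale.Agent.P315.H392

variable {E : Type*} [Fintype E]

/-- average over the `M` rows -/
noncomputable def avg {M : ℕ} (f : Fin M → ℝ) : ℝ := (∑ i, f i) / M

/-- cost of a flow (only row marginals matter) -/
noncomputable def Vx {M : ℕ} (D : Fin M → E → ℝ) (x : Fin M → E → ℝ) : ℝ :=
  avg fun i => ∑ e, x i e * D i e

/-- cost of a path -/
noncomputable def Vp {M : ℕ} (D : Fin M → E → ℝ) (P : Fin M → E) : ℝ := avg fun i => D i (P i)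

/-- potential of the path `P` in the state `y` -/
noncomputable def Phi {M : ℕ} (y : Fin M → E → ℝ) (P : Fin M → E) : ℝ :=
  avg fun i => -Real.log (y i (P i))

lemma avg_add {M : ℕ} (f g : Fin M → ℝ) : avg (fun i => f i + g i) = avg f + avg g := by
  simp only [avg, Finset.sum_add_distrib, add_div]

lemma avg_sub {M : ℕ} (f g : Fin M → ℝ) : avg (fun i => f i - g i) = avg f - avg g := by
  simp only [avg, Finset.sum_sub_distrib, sub_div]

lemma avg_mul {M : ℕ} (c : ℝ) (f : Fin M → ℝ) : avg (fun i => c * f i) = c * avg f := by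
  simp only [avg, ← Finset.mul_sum, mul_div_assoc]

lemma avg_le {M : ℕ} {f g : Fin M → ℝ} (h : ∀ i, f i ≤ g i) : avg f ≤ avg g := by
  simp only [avg]
  exact div_le_div_of_nonneg_right (Finset.sum_le_sum fun i _ => h i) (Nat.cast_nonneg _)

/-- `log (1+s) ≥ s log 2` on `[0,1]` -/
lemma log_one_add_ge {s : ℝ} (h0 : 0 ≤ s) (h1 : s ≤ 1) : s * Real.log 2 ≤ Real.log (1 + s) := by
  have h := strictConcaveOn_log_Ioi.concaveOn.2 (show (1:ℝ) ∈ Set.Ioi (0:ℝ) by simp)
    (show (2:ℝ) ∈ Set.Ioi (0:ℝ) by simp) (show (0:ℝ) ≤ 1 - s by linarith) h0 (by ring)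
  simp only [smul_eq_mul, Real.log_one, mul_zero, zero_add, mul_one] at h
  have h2 : 1 - s + s * 2 = 1 + s := by ring
  rwa [h2] at h

/-- one round -/
theorem md_step {M : ℕ} {l cap err : ℝ} (hl : 0 < l) (hlc : l * cap ≤ 1) (hcap : 0 ≤ cap)
    (D D' x y y' : Fin M → E → ℝ) (P : Fin M → E)
    (hD : ∀ i e, D' i e ≤ D i e)
    (hx0 : ∀ i e, 0 ≤ x i e)
    (hxP : ∀ i, 0 < x i (P i))
    (gap : Phi x P ≤ Phi y P + l * (Vp D P - Vx D x) + err)
    (upd : ∀ i, x i (P i) * (1 + l * min (D i (P i) - D' i (P i)) cap)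
        / (1 + l * ∑ e, x i e * min (D i e - D' i e) cap) ≤ y' i (P i)) :
    Phi y' P ≤ Phi y P + l * (Vp D P - Vx D' x) + err
      - l * Real.log 2 * avg (fun i => min (D i (P i) - D' i (P i)) cap) := by
  have key : ∀ i, -Real.log (y' i (P i)) ≤ -Real.log (x i (P i))
      - l * Real.log 2 * min (D i (P i) - D' i (P i)) cap
      + l * ((∑ e, x i e * D i e) - ∑ e, x i e * D' i e) := by
    intro i
    have hw0 : ∀ e, 0 ≤ min (D i e - D' i e) cap := fun e =>
      le_min (by have := hD i e; linarith) hcap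
    have hwc : l * min (D i (P i) - D' i (P i)) cap ≤ 1 :=
      (mul_le_mul_of_nonneg_left (min_le_right _ _) hl.le).trans hlc
    have hwl : 0 ≤ l * min (D i (P i) - D' i (P i)) cap := mul_nonneg hl.le (hw0 _)
    have hS : 0 ≤ l * ∑ e, x i e * min (D i e - D' i e) cap :=
      mul_nonneg hl.le (Finset.sum_nonneg fun e _ => mul_nonneg (hx0 i e) (hw0 e))
    have hA : 0 < x i (P i) * (1 + l * min (D i (P i) - D' i (P i)) cap) :=
      mul_pos (hxP i) (by linarith)
    have hB : 0 < 1 + l * ∑ e, x i e * min (D i e - D' i e) cap := by linarith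
    have h1 : Real.log (x i (P i) * (1 + l * min (D i (P i) - D' i (P i)) cap)
        / (1 + l * ∑ e, x i e * min (D i e - D' i e) cap)) ≤ Real.log (y' i (P i)) :=
      Real.log_le_log (div_pos hA hB) (upd i)
    rw [Real.log_div hA.ne' hB.ne', Real.log_mul (hxP i).ne' (by linarith)] at h1
    have h2 := log_one_add_ge hwl hwc
    have h3 : Real.log (1 + l * ∑ e, x i e * min (D i e - D' i e) cap)
        ≤ l * ∑ e, x i e * min (D i e - D' i e) cap := by
      have := Real.log_le_sub_one_of_pos hB
      linarith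
    have h4 : (∑ e, x i e * min (D i e - D' i e) cap)
        ≤ (∑ e, x i e * D i e) - ∑ e, x i e * D' i e := by
      rw [← Finset.sum_sub_distrib]
      refine Finset.sum_le_sum fun e _ => ?_
      have := mul_le_mul_of_nonneg_left (min_le_left (D i e - D' i e) cap) (hx0 i e)
      linarith
    have h5 := mul_le_mul_of_nonneg_left h4 hl.le
    have h6 : l * min (D i (P i) - D' i (P i)) cap * Real.log 2
        = l * Real.log 2 * min (D i (P i) - D' i (P i)) cap := by ring
    linarith
  have hsum := avg_le key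
  have e1 : avg (fun i => -Real.log (x i (P i))
      - l * Real.log 2 * min (D i (P i) - D' i (P i)) cap
      + l * ((∑ e, x i e * D i e) - ∑ e, x i e * D' i e))
      = Phi x P - l * Real.log 2 * avg (fun i => min (D i (P i) - D' i (P i)) cap)
        + l * (Vx D x - Vx D' x) := by
    rw [avg_add, avg_sub, avg_mul, avg_mul, avg_sub]
    rfl
  rw [e1] at hsum
  have e2 : Phi y' P = avg fun i => -Real.log (y' i (P i)) := rfl
  rw [e2]
  have e3 : l * (Vp D P - Vx D x) + l * (Vx D x - Vx D' x) = l * (Vp D P - Vx D' x) := by ring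
  linarith

/-- **(MD)**, rounds `0,…,K-1` -/
theorem md_sum {M : ℕ} {l cap err : ℝ} (hl : 0 < l) (hlc : l * cap ≤ 1) (hcap : 0 ≤ cap)
    (K : ℕ) (D x y : ℕ → Fin M → E → ℝ) (P : Fin M → E)
    (hD : ∀ k i e, D (k + 1) i e ≤ D k i e)
    (hx0 : ∀ k i e, 0 ≤ x k i e) (hxP : ∀ k i, 0 < x k i (P i))
    (gap : ∀ k, Phi (x k) P ≤ Phi (y k) P + l * (Vp (D k) P - Vx (D k) (x k)) + err)
    (upd : ∀ k i, x k i (P i) * (1 + l * min (D k i (P i) - D (k + 1) i (P i)) cap)
        / (1 + l * ∑ e, x k i e * min (D k i e - D (k + 1) i e) cap) ≤ y (k + 1) i (P i)) :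
    Real.log 2 * ∑ k ∈ range K, avg (fun i => min (D k i (P i) - D (k + 1) i (P i)) cap)
      ≤ (∑ k ∈ range K, (Vp (D k) P - Vx (D (k + 1)) (x k)))
        + (Phi (y 0) P - Phi (y K) P + K * err) / l := by
  have main : ∀ K : ℕ, Phi (y K) P + l * (Real.log 2 * ∑ k ∈ range K,
      avg (fun i => min (D k i (P i) - D (k + 1) i (P i)) cap))
      ≤ Phi (y 0) P + l * (∑ k ∈ range K, (Vp (D k) P - Vx (D (k + 1)) (x k))) + K * err := by
    intro K
    induction K with
    | zero => simp
    | succ K ih =>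
      have h := md_step hl hlc hcap (D K) (D (K + 1)) (x K) (y K) (y (K + 1)) P (hD K) (hx0 K)
        (hxP K) (gap K) (upd K)
      rw [Finset.sum_range_succ, Finset.sum_range_succ]
      push_cast
      linarith
  have h := main K
  rw [← sub_nonneg]
  have e : (∑ k ∈ range K, (Vp (D k) P - Vx (D (k + 1)) (x k)))
        + (Phi (y 0) P - Phi (y K) P + K * err) / l
      - Real.log 2 * ∑ k ∈ range K, avg (fun i => min (D k i (P i) - D (k + 1) i (P i)) cap)
      = (Phi (y 0) P + l * (∑ k ∈ range K, (Vp (D k) P - Vx (D (k + 1)) (x k))) + K * err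
        - (Phi (y K) P + l * (Real.log 2 * ∑ k ∈ range K,
      avg (fun i => min (D k i (P i) - D (k + 1) i (P i)) cap)))) / l := by
    field_simp
    ring
  rw [e]
  exact div_nonneg (by linarith) hl.le

omit [Fintype E] in
/-- potentials are nonnegative when the state is a sub-probability -/
lemma Phi_nonneg {M : ℕ} (y : Fin M → E → ℝ) (P : Fin M → E) (h0 : ∀ i, 0 ≤ y i (P i))
    (h1 : ∀ i, y i (P i) ≤ 1) : 0 ≤ Phi y P := by
  unfold Phi avg
  refine div_nonneg (Finset.sum_nonneg fun i _ => ?_) (Nat.cast_nonneg _)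
  have := Real.log_nonpos (h0 i) (h1 i)
  linarith

/-- start at the uniform state: the capacity is `log |E|` -/
lemma Phi_unif {M : ℕ} (hM : 0 < M) (y : Fin M → E → ℝ) (P : Fin M → E)
    (hy : ∀ i, y i (P i) = 1 / Fintype.card E) : Phi y P = Real.log (Fintype.card E) := by
  unfold Phi avg
  simp only [hy, one_div, Real.log_inv, neg_neg, Finset.sum_const, Finset.card_univ,
    Fintype.card_fin, nsmul_eq_mul]
  have : (M : ℝ) ≠ 0 := by exact_mod_cast hM.ne'
  field_simp

/-! ### (**): blocks with reset, splitting of the active blocks into `A` and `A'` -/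

/-- Potential bookkeeping over blocks `0,…,B-1`.  `φ b` = potential at the start of block `b`,
`ψ b` = potential at its end, `ρ b` = truncated `P`-mass in the block, `g b` = sum of
`V_k(P) - V_{k+1}(x_k)` over the block.  In a block of `A` the state is `(1-ζ) y_end + ζ y_start`,
in a block of `A'` too; in all other blocks it is reset to `y_start`. -/
theorem md_blocks {l z err : ℝ} (hl : 0 < l)
    (B : ℕ) (φ ψ ρ g : ℕ → ℝ) (A A' : Finset ℕ) (hdisj : Disjoint A A')
    (hA : A ⊆ range B) (hA' : A' ⊆ range B)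
    (hblock : ∀ b ∈ A, Real.log 2 * ρ b ≤ g b + (φ b - ψ b + err) / l)
    (hnextA : ∀ b ∈ A, φ (b + 1) ≤ ψ b - Real.log (1 - z))
    (hnextA' : ∀ b ∈ A', φ (b + 1) ≤ φ b - Real.log z)
    (hreset : ∀ b, b ∉ A → b ∉ A' → φ (b + 1) ≤ φ b)
    (hφ : ∀ b, 0 ≤ φ b) :
    Real.log 2 * ∑ b ∈ A, ρ b ≤ (∑ b ∈ A, g b)
      + (φ 0 + A.card * (err - Real.log (1 - z)) + A'.card * (-Real.log z)) / l := by
  classical
  have tele : ∀ N : ℕ, φ N + ∑ b ∈ A ∩ range N, (φ b - ψ b) ≤ φ 0
      + (A ∩ range N).card * (-Real.log (1 - z)) + (A' ∩ range N).card * (-Real.log z) := by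
    intro N
    induction N with
    | zero => simp
    | succ N ih =>
      by_cases h1 : N ∈ A
      · have h2 : N ∉ A' := fun h => (Finset.disjoint_left.mp hdisj h1) h
        have e1 : A ∩ range (N + 1) = insert N (A ∩ range N) := by
          ext b; simp only [mem_inter, mem_range, mem_insert]
          constructor
          · rintro ⟨hb, hb2⟩
            rcases Nat.lt_succ_iff_lt_or_eq.mp hb2 with h | h
            · exact Or.inr ⟨hb, h⟩
            · exact Or.inl h
          · rintro (rfl | ⟨hb, hb2⟩)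
            · exact ⟨h1, Nat.lt_succ_self _⟩
            · exact ⟨hb, Nat.lt_succ_of_lt hb2⟩
        have e2 : A' ∩ range (N + 1) = A' ∩ range N := by
          ext b; simp only [mem_inter, mem_range]
          constructor
          · rintro ⟨hb, hb2⟩
            rcases Nat.lt_succ_iff_lt_or_eq.mp hb2 with h | h
            · exact ⟨hb, h⟩
            · exact absurd (h ▸ hb) h2
          · rintro ⟨hb, hb2⟩
            exact ⟨hb, Nat.lt_succ_of_lt hb2⟩
        have e3 : N ∉ A ∩ range N := by simp
        rw [e1, e2, Finset.sum_insert e3, Finset.card_insert_of_notMem e3]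
        push_cast
        have := hnextA N h1
        linarith
      · have e1 : A ∩ range (N + 1) = A ∩ range N := by
          ext b; simp only [mem_inter, mem_range]
          constructor
          · rintro ⟨hb, hb2⟩
            rcases Nat.lt_succ_iff_lt_or_eq.mp hb2 with h | h
            · exact ⟨hb, h⟩
            · exact absurd (h ▸ hb) h1
          · rintro ⟨hb, hb2⟩
            exact ⟨hb, Nat.lt_succ_of_lt hb2⟩
        by_cases h2 : N ∈ A'
        · have e2 : A' ∩ range (N + 1) = insert N (A' ∩ range N) := by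
            ext b; simp only [mem_inter, mem_range, mem_insert]
            constructor
            · rintro ⟨hb, hb2⟩
              rcases Nat.lt_succ_iff_lt_or_eq.mp hb2 with h | h
              · exact Or.inr ⟨hb, h⟩
              · exact Or.inl h
            · rintro (rfl | ⟨hb, hb2⟩)
              · exact ⟨h2, Nat.lt_succ_self _⟩
              · exact ⟨hb, Nat.lt_succ_of_lt hb2⟩
          have e3 : N ∉ A' ∩ range N := by simp
          rw [e1, e2, Finset.card_insert_of_notMem e3]
          push_cast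
          have := hnextA' N h2
          linarith
        · have e2 : A' ∩ range (N + 1) = A' ∩ range N := by
            ext b; simp only [mem_inter, mem_range]
            constructor
            · rintro ⟨hb, hb2⟩
              rcases Nat.lt_succ_iff_lt_or_eq.mp hb2 with h | h
              · exact ⟨hb, h⟩
              · exact absurd (h ▸ hb) h2
            · rintro ⟨hb, hb2⟩
              exact ⟨hb, Nat.lt_succ_of_lt hb2⟩
          rw [e1, e2]
          have := hreset N h1 h2
          linarith
  have hT := tele B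
  rw [Finset.inter_eq_left.mpr hA, Finset.inter_eq_left.mpr hA'] at hT
  have hφB := hφ B
  have h1 : Real.log 2 * ∑ b ∈ A, ρ b ≤ ∑ b ∈ A, (g b + (φ b - ψ b + err) / l) := by
    rw [Finset.mul_sum]; exact Finset.sum_le_sum hblock
  have h2 : ∑ b ∈ A, (g b + (φ b - ψ b + err) / l)
      = (∑ b ∈ A, g b) + ((∑ b ∈ A, (φ b - ψ b)) + A.card * err) / l := by
    rw [Finset.sum_add_distrib, ← Finset.sum_div, Finset.sum_add_distrib]
    simp
  rw [h2] at h1
  have h3 : ((∑ b ∈ A, (φ b - ψ b)) + A.card * err) / l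
      ≤ (φ 0 + A.card * (err - Real.log (1 - z)) + A'.card * (-Real.log z)) / l := by
    apply div_le_div_of_nonneg_right _ hl.le
    nlinarith
  linarith

/-! ### The Frank-Wolfe step: the gap hypothesis is reachable by a terminating loop -/

/-- objective `avg KL(x_i ‖ y_i) + l V(x)` -/
noncomputable def Fobj {M : ℕ} (l : ℝ) (D x y : Fin M → E → ℝ) : ℝ :=
  avg (fun i => ∑ e, x i e * Real.log (x i e / y i e)) + l * Vx D x

/-- linearised cost of the edge `e` at `x` -/
noncomputable def lin {M : ℕ} (l : ℝ) (D x y : Fin M → E → ℝ) (i : Fin M) (e : E) : ℝ :=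
  Real.log (x i e / y i e) + l * D i e

/-- one edge: `x⁺ log (x⁺/y) ≤ x⁺ log (x/y) + x⁺ (x⁺ - x)/x` -/
lemma entropy_step {x xp y : ℝ} (hx : 0 < x) (hxp : 0 ≤ xp) (hy : 0 < y) :
    xp * Real.log (xp / y) ≤ xp * Real.log (x / y) + (xp - x) ^ 2 / x + (xp - x) := by
  rcases hxp.eq_or_lt with h | h
  · subst h
    simp only [zero_mul, zero_sub, zero_add, even_two, Even.neg_pow]
    rw [sq, mul_div_assoc, div_self hx.ne']
    linarith
  · have e1 : Real.log (xp / y) = Real.log (x / y) + Real.log (xp / x) := by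
      rw [Real.log_div h.ne' hy.ne', Real.log_div hx.ne' hy.ne', Real.log_div h.ne' hx.ne']
      ring
    have e2 : Real.log (xp / x) ≤ xp / x - 1 := Real.log_le_sub_one_of_pos (div_pos h hx)
    have e3 : xp * (xp / x - 1) = (xp - x) ^ 2 / x + (xp - x) := by
      field_simp
      ring
    rw [e1]
    have := mul_le_mul_of_nonneg_left e2 h.le
    linarith

/-- descent of the objective under a step `x⁺ = x + t (s - x)` with `x ≥ m` on the support -/
theorem fw_step {M : ℕ} {l t m : ℝ} (ht0 : 0 ≤ t) (ht1 : t ≤ 1) (hm : 0 < m)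
    (D x s y : Fin M → E → ℝ)
    (hx : ∀ i e, m ≤ x i e) (hy : ∀ i e, 0 < y i e)
    (hs0 : ∀ i e, 0 ≤ s i e) (hs1 : ∀ i, ∑ e, s i e = 1) (hx1 : ∀ i, ∑ e, x i e = 1) :
    Fobj l D (fun i e => x i e + t * (s i e - x i e)) y
      ≤ Fobj l D x y - t * (Vx (lin l D x y) x - Vx (lin l D x y) s) + t ^ 2 * (2 / m) := by
  have hrow : ∀ i, (∑ e, (x i e + t * (s i e - x i e))
        * Real.log ((x i e + t * (s i e - x i e)) / y i e))
      ≤ (∑ e, x i e * Real.log (x i e / y i e))
        + t * (∑ e, (s i e - x i e) * Real.log (x i e / y i e)) + t ^ 2 * (2 / m) := by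
    intro i
    have h1 : ∀ e, (x i e + t * (s i e - x i e))
        * Real.log ((x i e + t * (s i e - x i e)) / y i e)
        ≤ x i e * Real.log (x i e / y i e) + t * ((s i e - x i e) * Real.log (x i e / y i e))
          + (t ^ 2 * ((s i e + x i e) / m) + t * (s i e - x i e)) := by
      intro e
      have hxe : 0 < x i e := lt_of_lt_of_le hm (hx i e)
      have hp : 0 ≤ x i e + t * (s i e - x i e) := by
        have : x i e + t * (s i e - x i e) = (1 - t) * x i e + t * s i e := by ring
        rw [this]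
        exact add_nonneg (mul_nonneg (by linarith) hxe.le) (mul_nonneg ht0 (hs0 i e))
      have h2 := entropy_step hxe hp (hy i e)
      have hsle : s i e ≤ 1 := by
        rw [← hs1 i]
        exact Finset.single_le_sum (fun e _ => hs0 i e) (Finset.mem_univ e)
      have hxle : x i e ≤ 1 := by
        rw [← hx1 i]
        exact Finset.single_le_sum (fun e _ => (hm.le.trans (hx i e))) (Finset.mem_univ e)
      have h3 : (x i e + t * (s i e - x i e) - x i e) ^ 2 / x i e
          ≤ t ^ 2 * ((s i e + x i e) / m) := by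
        have e4 : (x i e + t * (s i e - x i e) - x i e) ^ 2 / x i e
            = t ^ 2 * ((s i e - x i e) ^ 2 / x i e) := by ring
        rw [e4]
        apply mul_le_mul_of_nonneg_left _ (sq_nonneg t)
        have h5 : (s i e - x i e) ^ 2 ≤ s i e + x i e := by nlinarith [hs0 i e]
        have h6 : 0 ≤ s i e + x i e := by linarith [hs0 i e]
        calc (s i e - x i e) ^ 2 / x i e ≤ (s i e + x i e) / x i e :=
              div_le_div_of_nonneg_right h5 hxe.le
          _ ≤ (s i e + x i e) / m := div_le_div_of_nonneg_left h6 hm (hx i e)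
      have e7 : (x i e + t * (s i e - x i e)) * Real.log (x i e / y i e)
          = x i e * Real.log (x i e / y i e) + t * ((s i e - x i e) * Real.log (x i e / y i e)) := by
        ring
      linarith
    have h8 := Finset.sum_le_sum fun e (_ : e ∈ (univ : Finset E)) => h1 e
    refine h8.trans (le_of_eq ?_)
    rw [Finset.sum_add_distrib, Finset.sum_add_distrib, Finset.sum_add_distrib, ← Finset.mul_sum,
      ← Finset.mul_sum, ← Finset.mul_sum, ← Finset.sum_div, Finset.sum_add_distrib,
      Finset.sum_sub_distrib, hs1 i, hx1 i]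
    ring
  have h := avg_le hrow
  by_cases hM : M = 0
  · subst hM
    simp only [Fobj, Vx, avg, Finset.univ_eq_empty, Finset.sum_empty, Nat.cast_zero, div_zero,
      mul_zero, sub_zero, add_zero, zero_add]
    positivity
  have hM' : (M : ℝ) ≠ 0 := by exact_mod_cast hM
  have hc : avg (fun _ : Fin M => t ^ 2 * (2 / m)) = t ^ 2 * (2 / m) := by
    unfold avg
    simp only [Finset.sum_const, Finset.card_univ, Fintype.card_fin, nsmul_eq_mul]
    field_simp
  have e1 : avg (fun i => (∑ e, x i e * Real.log (x i e / y i e))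
        + t * (∑ e, (s i e - x i e) * Real.log (x i e / y i e)) + t ^ 2 * (2 / m))
      = avg (fun i => ∑ e, x i e * Real.log (x i e / y i e))
        + t * avg (fun i => ∑ e, (s i e - x i e) * Real.log (x i e / y i e))
        + t ^ 2 * (2 / m) := by
    rw [avg_add, avg_add, avg_mul, hc]
  rw [e1] at h
  have e2 : Vx D (fun i e => x i e + t * (s i e - x i e))
      = Vx D x + t * (Vx D s - Vx D x) := by
    unfold Vx
    rw [← avg_sub, ← avg_mul, ← avg_add]
    congr 1
    funext i
    rw [← Finset.sum_sub_distrib, Finset.mul_sum, ← Finset.sum_add_distrib]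
    refine Finset.sum_congr rfl fun e _ => ?_
    ring
  have e3 : Vx (lin l D x y) x - Vx (lin l D x y) s
      = -avg (fun i => ∑ e, (s i e - x i e) * Real.log (x i e / y i e))
        + l * (Vx D x - Vx D s) := by
    unfold Vx lin
    rw [← avg_sub, ← avg_sub, ← avg_mul]
    have : -avg (fun i => ∑ e, (s i e - x i e) * Real.log (x i e / y i e))
        = avg (fun i => -∑ e, (s i e - x i e) * Real.log (x i e / y i e)) := by
      unfold avg
      rw [Finset.sum_neg_distrib, neg_div]
    rw [this, ← avg_add]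
    congr 1
    funext i
    rw [← Finset.sum_neg_distrib, ← Finset.sum_sub_distrib, ← Finset.sum_sub_distrib,
      Finset.mul_sum, ← Finset.sum_add_distrib]
    refine Finset.sum_congr rfl fun e _ => ?_
    ring
  unfold Fobj
  rw [e2, e3]
  nlinarith [h]

/-- a gap `γ` gives the descent `γ² m / 8` (`0 ≤ γ m ≤ 4`, step `t = γ m / 4`) -/
theorem fw_descent {M : ℕ} {l γ m : ℝ} (hm : 0 < m) (hγ0 : 0 ≤ γ) (hγ1 : γ * m ≤ 4)
    (D x s y : Fin M → E → ℝ)
    (hx : ∀ i e, m ≤ x i e) (hy : ∀ i e, 0 < y i e)
    (hs0 : ∀ i e, 0 ≤ s i e) (hs1 : ∀ i, ∑ e, s i e = 1) (hx1 : ∀ i, ∑ e, x i e = 1)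
    (hgap : γ ≤ Vx (lin l D x y) x - Vx (lin l D x y) s) :
    Fobj l D (fun i e => x i e + γ * m / 4 * (s i e - x i e)) y
      ≤ Fobj l D x y - γ ^ 2 * m / 8 := by
  have h := fw_step (l := l) (t := γ * m / 4) (m := m) (by positivity) (by linarith) hm D x s y
    hx hy hs0 hs1 hx1
  have h1 : γ * m / 4 * γ ≤ γ * m / 4 * (Vx (lin l D x y) x - Vx (lin l D x y) s) :=
    mul_le_mul_of_nonneg_left hgap (by positivity)
  have h2 : (γ * m / 4) ^ 2 * (2 / m) = γ ^ 2 * m / 8 := by
    field_simp
    ring
  rw [h2] at h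
  nlinarith

/-- small gap for the path `P` = the hypothesis `gap` of `md_sum` -/
theorem gap_of_fw {M : ℕ} {l err : ℝ} (D x y : Fin M → E → ℝ)
    (P : Fin M → E)
    (hx0 : ∀ i e, 0 < x i e) (hy : ∀ i e, 0 < y i e) (hx1 : ∀ i, ∑ e, x i e = 1)
    (hy1 : ∀ i, ∑ e, y i e ≤ 1)
    (hgap : Vx (lin l D x y) x - Vp (lin l D x y) P ≤ err) :
    Phi x P ≤ Phi y P + l * (Vp D P - Vx D x) + err := by
  have hKL : 0 ≤ avg (fun i => ∑ e, x i e * Real.log (x i e / y i e)) := by
    unfold avg
    refine div_nonneg (Finset.sum_nonneg fun i _ => ?_) (Nat.cast_nonneg _)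
    have h1 : ∀ e, x i e - y i e ≤ x i e * Real.log (x i e / y i e) := by
      intro e
      have h2 : Real.log (y i e / x i e) ≤ y i e / x i e - 1 :=
        Real.log_le_sub_one_of_pos (div_pos (hy i e) (hx0 i e))
      have h3 : Real.log (x i e / y i e) = -Real.log (y i e / x i e) := by
        rw [← Real.log_inv, inv_div]
      rw [h3]
      have h4 := mul_le_mul_of_nonneg_left h2 (hx0 i e).le
      have h5 : x i e * (y i e / x i e - 1) = y i e - x i e := by
        have := (hx0 i e).ne'
        field_simp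
      linarith
    have h6 := Finset.sum_le_sum fun e (_ : e ∈ (univ : Finset E)) => h1 e
    rw [Finset.sum_sub_distrib, hx1 i] at h6
    have := hy1 i
    linarith
  have e1 : Vx (lin l D x y) x
      = avg (fun i => ∑ e, x i e * Real.log (x i e / y i e)) + l * Vx D x := by
    unfold Vx lin
    rw [← avg_mul, ← avg_add]
    congr 1
    funext i
    rw [Finset.mul_sum, ← Finset.sum_add_distrib]
    refine Finset.sum_congr rfl fun e _ => ?_
    ring
  have e2 : Vp (lin l D x y) P = Phi y P - Phi x P + l * Vp D P := by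
    unfold Vp lin Phi
    rw [← avg_sub, ← avg_mul, ← avg_add]
    congr 1
    funext i
    rw [Real.log_div (hx0 i _).ne' (hy i _).ne']
    ring
  rw [e1, e2] at hgap
  linarith

end Vale.Agent.P315.H392
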